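import Mathlib

namespace Vale.Agent.Lib.P043

open Finset

variable {G : Type*} [AddCommGroup G]

/-- The shift operators on functions `G → ZMod p`, as a monoid homomorphism. -/
noncomputable def shiftHom (p : ℕ) :
    Multiplicative G →* Module.End (ZMod p) (G → ZMod p) where
  toFun g := LinearMap.funLeft (ZMod p) (ZMod p) (fun x => x - Multiplicative.toAdd g)
  map_one' := by
    ext h x
    simp [LinearMap.funLeft]
  map_mul' a b := by
    ext h x
    simp [LinearMap.funLeft, sub_sub]

theorem shiftHom_apply (p : ℕ) (g : G) (h : G → ZMod p) (x : G) :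
    shiftHom p (Multiplicative.ofAdd g) h x = h (x - g) := rfl

/-- The action of the group algebra on functions. -/
noncomputable def act (p : ℕ) :
    AddMonoidAlgebra (ZMod p) G →ₐ[ZMod p] Module.End (ZMod p) (G → ZMod p) :=
  AddMonoidAlgebra.lift (ZMod p) (Module.End (ZMod p) (G → ZMod p)) G (shiftHom p)

theorem act_single (p : ℕ) (g : G) :
    act p (AddMonoidAlgebra.single g (1 : ZMod p)) = shiftHom p (Multiplicative.ofAdd g) := by
  simp [act]

/-- Frobenius: the `p`-th power of the sum of shifts by elements of `F` is the sum of the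
shifts by `p • f`. -/
theorem sum_shift_pow (p : ℕ) [Fact p.Prime] (F : Finset G) :
    (∑ f ∈ F, shiftHom p (Multiplicative.ofAdd f)) ^ p
      = ∑ f ∈ F, shiftHom p (Multiplicative.ofAdd (p • f)) := by
  have hinj : Function.Injective (algebraMap (ZMod p) (AddMonoidAlgebra (ZMod p) G)) := by
    intro a b hab
    have := congrArg (fun φ : AddMonoidAlgebra (ZMod p) G => φ.coeff 0) hab
    simpa [AddMonoidAlgebra.coe_algebraMap] using this
  have hchar : CharP (AddMonoidAlgebra (ZMod p) G) p :=
    charP_of_injective_algebraMap hinj p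
  have h1 : (∑ f ∈ F, AddMonoidAlgebra.single f (1 : ZMod p)) ^ p
      = ∑ f ∈ F, AddMonoidAlgebra.single (p • f) (1 : ZMod p) := by
    rw [sum_pow_char]
    refine Finset.sum_congr rfl (fun f _ => ?_)
    rw [AddMonoidAlgebra.single_pow, one_pow]
  have h2 := congrArg (act p) h1
  rw [map_pow, map_sum, map_sum] at h2
  simpa [act_single] using h2

/-- The sum of the shifts by the elements of `F`. -/
noncomputable def sumShift (p : ℕ) (F : Finset G) : Module.End (ZMod p) (G → ZMod p) :=
  ∑ f ∈ F, shiftHom p (Multiplicative.ofAdd f)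

theorem sumShift_apply (p : ℕ) (F : Finset G) (h : G → ZMod p) (x : G) :
    sumShift p F h x = ∑ f ∈ F, h (x - f) := by
  simp [sumShift, LinearMap.sum_apply, Finset.sum_apply, shiftHom_apply]

open Classical in
/-- Key lemma (Frobenius argument): if every point of `G` is covered exactly `k` times by the
translates `a + F`, `a ∈ A`, and `F` has prime cardinality `p`, then `A` is invariant under
`p • (f - f')` for all `f, f' ∈ F`. -/
theorem invariant_of_prime_card (F : Finset G) (A : Set G) (k : ℕ) (hp : F.card.Prime)
    (hk : ∀ x : G, (F.filter (fun f => x - f ∈ A)).card = k) :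
    ∀ a ∈ A, ∀ f ∈ F, ∀ f' ∈ F, a + F.card • (f - f') ∈ A := by
  set p := F.card with hpdef
  have : Fact p.Prime := ⟨hp⟩
  -- the indicator function of `A` with values in `ZMod p`
  set h : G → ZMod p := fun x => if x ∈ A then 1 else 0 with hh
  have hcount : ∀ (S : Finset G) (x : G),
      ∑ f ∈ S, h (x - f) = ((S.filter (fun f => x - f ∈ A)).card : ZMod p) := by
    intro S x
    simp [hh]
  have h1 : sumShift p F h = fun _ => (k : ZMod p) := by
    funext x
    rw [sumShift_apply, hcount, hk]
  have h2 : sumShift p F (fun _ => (k : ZMod p)) = 0 := by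
    funext x
    rw [sumShift_apply]
    simp [← hpdef]
  have h3 : (sumShift p F ^ p) h = 0 := by
    obtain ⟨m, hm⟩ : ∃ m, p = m + 2 := ⟨p - 2, by have := hp.two_le; omega⟩
    have hgen : ∀ (T : Module.End (ZMod p) (G → ZMod p)) (n : ℕ), n = m + 2 →
        T ^ n = T ^ m * (T * T) := by
      intro T n hn
      subst hn
      rw [pow_add, pow_two]
    rw [hgen _ p hm]
    simp only [Module.End.mul_apply]
    rw [h1, h2, map_zero]
  have h4 : ∀ x : G, ((F.filter (fun f => x - p • f ∈ A)).card : ZMod p) = 0 := by
    intro x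
    have h5 := congrFun h3 x
    rw [sumShift, sum_shift_pow] at h5
    simp only [LinearMap.sum_apply, Finset.sum_apply, shiftHom_apply, Pi.zero_apply] at h5
    rw [← h5]
    simp [hh]
  intro a ha f hf f' hf'
  have h6 := h4 (a + p • f)
  rw [ZMod.natCast_eq_zero_iff] at h6
  have hle : (F.filter (fun g => a + p • f - p • g ∈ A)).card ≤ p :=
    Finset.card_filter_le _ _
  have hpos : 0 < (F.filter (fun g => a + p • f - p • g ∈ A)).card := by
    apply Finset.card_pos.mpr
    exact ⟨f, by simp [hf, ha]⟩
  have heq : (F.filter (fun g => a + p • f - p • g ∈ A)).card = p :=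
    le_antisymm hle (Nat.le_of_dvd hpos h6)
  have hall : F.filter (fun g => a + p • f - p • g ∈ A) = F :=
    Finset.eq_of_subset_of_card_le (Finset.filter_subset _ _) (by rw [heq])
  have hmem : f' ∈ F.filter (fun g => a + p • f - p • g ∈ A) := by rw [hall]; exact hf'
  have := (Finset.mem_filter.mp hmem).2
  rw [smul_sub]
  rwa [add_sub_assoc] at this

end Vale.Agent.Lib.P043
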