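import Mathlib

namespace Vale.Agent.Lib.P043

variable {G : Type*} [AddCommGroup G]

/-- The saturation of a subgroup, as a `ℤ`-submodule. -/
def saturation (H : AddSubgroup G) : Submodule ℤ G where
  carrier := {g | ∃ m : ℕ, 0 < m ∧ m • g ∈ H}
  add_mem' := by
    rintro a b ⟨m, hm, ha⟩ ⟨n, hn, hb⟩
    refine ⟨m * n, Nat.mul_pos hm hn, ?_⟩
    have h1 : (m * n) • a = n • (m • a) := by rw [mul_comm, mul_smul]
    have h2 : (m * n) • b = m • (n • b) := by rw [mul_smul]
    rw [smul_add, h1, h2]
    exact H.add_mem (H.nsmul_mem ha n) (H.nsmul_mem hb m)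
  zero_mem' := ⟨1, Nat.one_pos, by simp⟩
  smul_mem' := by
    rintro c a ⟨m, hm, ha⟩
    refine ⟨m, hm, ?_⟩
    have : m • (c • a) = c • (m • a) := by
      rw [smul_comm]
    rw [this]
    exact H.zsmul_mem ha c

theorem mem_saturation (H : AddSubgroup G) (g : G) :
    g ∈ saturation H ↔ ∃ m : ℕ, 0 < m ∧ m • g ∈ H := Iff.rfl

/-- In a finitely generated abelian group, a single positive integer pushes the whole
saturation of `H` into `H`. -/
theorem exists_exponent [AddGroup.FG G] (H : AddSubgroup G) :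
    ∃ e : ℕ, 0 < e ∧ ∀ g : G, (∃ m : ℕ, 0 < m ∧ m • g ∈ H) → e • g ∈ H := by
  classical
  have hfin : Module.Finite ℤ G := Module.Finite.iff_addGroup_fg.mpr inferInstance
  have hnoeth : IsNoetherian ℤ G := isNoetherian_of_isNoetherianRing_of_finite ℤ G
  obtain ⟨S, hS⟩ : (saturation H).FG := IsNoetherian.noetherian _
  have hSmem : ∀ s ∈ S, ∃ m : ℕ, 0 < m ∧ m • s ∈ H := by
    intro s hs
    have : s ∈ saturation H := by
      rw [← hS]
      exact Submodule.subset_span hs
    exact this
  choose! m hm using hSmem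
  refine ⟨∏ s ∈ S, m s, Finset.prod_pos (fun s hs => (hm s hs).1), ?_⟩
  intro g hg
  have hg' : g ∈ Submodule.span ℤ (S : Set G) := by
    rw [hS]
    exact hg
  induction hg' using Submodule.span_induction with
  | mem x hx =>
    obtain ⟨c, hc⟩ := Finset.dvd_prod_of_mem m hx
    rw [hc, mul_comm, mul_smul]
    exact H.nsmul_mem (hm x hx).2 c
  | zero => simp
  | add x y _ _ hx hy =>
    rw [smul_add]
    exact H.add_mem (hx ((mem_saturation H x).mp (by rw [← hS]; assumption)))
      (hy ((mem_saturation H y).mp (by rw [← hS]; assumption)))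
  | smul c x _ hx =>
    have : (∏ s ∈ S, m s) • (c • x) = c • ((∏ s ∈ S, m s) • x) := by rw [smul_comm]
    rw [this]
    exact H.zsmul_mem (hx ((mem_saturation H x).mp (by rw [← hS]; assumption))) c

/-- In a finitely generated abelian group, the multiples of a positive integer form a
subgroup of finite index. -/
theorem finiteIndex_range_nsmul [AddGroup.FG G] (N : ℕ) (hN : 0 < N) :
    (nsmulAddMonoidHom (α := G) N).range.FiniteIndex := by
  have htors : IsAddTorsion (G ⧸ (nsmulAddMonoidHom (α := G) N).range) := by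
    intro q
    induction q using QuotientAddGroup.induction_on with
    | H g =>
      rw [isOfFinAddOrder_iff_nsmul_eq_zero]
      refine ⟨N, hN, ?_⟩
      rw [← QuotientAddGroup.mk_nsmul, QuotientAddGroup.eq_zero_iff]
      exact ⟨g, rfl⟩
  have : Finite (G ⧸ (nsmulAddMonoidHom (α := G) N).range) :=
    AddCommGroup.finite_of_fg_isAddTorsion _ htors
  exact AddSubgroup.finiteIndex_of_finite_quotient

/-- Key subgroup lemma: in a finitely generated abelian group, for every subgroup `H` and
every positive integer `p` there is a finite-index subgroup `M` with `M ∩ H ⊆ p • H`. -/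
theorem exists_finiteIndex_inter_le [AddGroup.FG G] (H : AddSubgroup G) (p : ℕ) (hp : 0 < p) :
    ∃ M : AddSubgroup G, M.FiniteIndex ∧ ∀ x ∈ M, x ∈ H → ∃ h ∈ H, x = p • h := by
  obtain ⟨e, he, hsat⟩ := exists_exponent H
  set N := p * e with hN
  have hNpos : 0 < N := Nat.mul_pos hp he
  set R := (nsmulAddMonoidHom (α := G) N).range with hR
  set K := H.map (nsmulAddMonoidHom (α := G) p) with hK
  have hRfin : R.FiniteIndex := finiteIndex_range_nsmul N hNpos
  refine ⟨K ⊔ R, AddSubgroup.finiteIndex_of_le (le_sup_right : R ≤ K ⊔ R), ?_⟩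
  intro x hx hxH
  obtain ⟨k, hk, r, hr, rfl⟩ := AddSubgroup.mem_sup.mp hx
  obtain ⟨h1, hh1, rfl⟩ := hk
  obtain ⟨g, rfl⟩ := hr
  simp only [nsmulAddMonoidHom_apply] at hxH ⊢
  have hpH : p • h1 ∈ H := H.nsmul_mem hh1 p
  have hNg : N • g ∈ H := by
    have := H.sub_mem hxH hpH
    simpa using this
  have heg : e • g ∈ H := hsat g ⟨N, hNpos, hNg⟩
  refine ⟨h1 + e • g, H.add_mem hh1 heg, ?_⟩
  rw [smul_add, hN, mul_smul]

end Vale.Agent.Lib.P043
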