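import Vale.Agent.Lib.P043.Frobenius
import Vale.Agent.Lib.P043.Subgroup

namespace Vale.Agent.Lib.P043

open Finset

variable {G : Type*} [AddCommGroup G]

open Classical in
/-- A tiling covers every point exactly once. -/
theorem card_filter_of_tiling (F : Finset G) (A : Set G)
    (hA : ∀ g : G, ∃! q : G × G, q.1 ∈ A ∧ q.2 ∈ F ∧ q.1 + q.2 = g) (x : G) :
    (F.filter (fun f => x - f ∈ A)).card = 1 := by
  obtain ⟨⟨a0, f0⟩, ⟨ha0, hf0, hsum⟩, huniq⟩ := hA x
  simp only at ha0 hf0 hsum
  rw [Finset.card_eq_one]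
  refine ⟨f0, ?_⟩
  ext f
  simp only [Finset.mem_filter, Finset.mem_singleton]
  constructor
  · rintro ⟨hf, hxf⟩
    have := huniq (x - f, f) ⟨hxf, hf, by simp⟩
    exact (Prod.ext_iff.mp this).2
  · rintro rfl
    refine ⟨hf0, ?_⟩
    have : x - f = a0 := by rw [← hsum]; simp
    rw [this]; exact ha0

/-- Every tiling by a tile of prime cardinality `p` is invariant under `p • (f - f')`. -/
theorem tiling_invariant (F : Finset G) (A : Set G) (hp : F.card.Prime)
    (hA : ∀ g : G, ∃! q : G × G, q.1 ∈ A ∧ q.2 ∈ F ∧ q.1 + q.2 = g) :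
    ∀ a ∈ A, ∀ f ∈ F, ∀ f' ∈ F, a + F.card • (f - f') ∈ A := by
  classical
  exact invariant_of_prime_card F A 1 hp (card_filter_of_tiling F A hA)

/-- The subgroup generated by the differences of elements of `F`. -/
def diffSubgroup (F : Finset G) : AddSubgroup G :=
  AddSubgroup.closure {d | ∃ f ∈ F, ∃ f' ∈ F, d = f - f'}

theorem sub_mem_diffSubgroup (F : Finset G) {f f' : G} (hf : f ∈ F) (hf' : f' ∈ F) :
    f - f' ∈ diffSubgroup F :=
  AddSubgroup.subset_closure ⟨f, hf, f', hf', rfl⟩

/-- Every tiling by a tile of prime cardinality `p` is invariant under `p • h` for `h` in the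
subgroup generated by the differences of the tile. -/
theorem tiling_invariant_subgroup (F : Finset G) (A : Set G) (hp : F.card.Prime)
    (hA : ∀ g : G, ∃! q : G × G, q.1 ∈ A ∧ q.2 ∈ F ∧ q.1 + q.2 = g) :
    ∀ h ∈ diffSubgroup F, ∀ a : G, a + F.card • h ∈ A ↔ a ∈ A := by
  have hinv := tiling_invariant F A hp hA
  intro h hh
  induction hh using AddSubgroup.closure_induction with
  | mem d hd =>
    obtain ⟨f, hf, f', hf', rfl⟩ := hd
    intro a
    constructor
    · intro ha
      have := hinv _ ha f' hf' f hf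
      have h2 : a + F.card • (f - f') + F.card • (f' - f) = a := by
        rw [add_assoc, ← smul_add]; simp
      rwa [h2] at this
    · intro ha
      exact hinv a ha f hf f' hf'
  | zero => intro a; simp
  | add x y _ _ hx hy =>
    intro a
    rw [smul_add, ← add_assoc, hy, hx]
  | neg x _ hx =>
    intro a
    have := hx (a + F.card • (-x))
    rw [← this]
    have h2 : a + F.card • (-x) + F.card • x = a := by
      rw [add_assoc, ← smul_add]; simp
    rw [h2]

/-- The periodic tiling conjecture for tiles of prime cardinality in an arbitrary finitely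
generated abelian group: if `F` tiles `G` then it admits a periodic tiling. -/
theorem periodic_tiling_of_prime_card [AddGroup.FG G] (F : Finset G) (hp : F.card.Prime)
    (A : Set G) (hA : ∀ g : G, ∃! q : G × G, q.1 ∈ A ∧ q.2 ∈ F ∧ q.1 + q.2 = g) :
    ∃ (A' : Set G) (L : AddSubgroup G), L.FiniteIndex ∧
      (∀ g : G, ∃! q : G × G, q.1 ∈ A' ∧ q.2 ∈ F ∧ q.1 + q.2 = g) ∧
      ∀ h ∈ L, ∀ a : G, a + h ∈ A' ↔ a ∈ A' := by
  classical
  set p := F.card with hpdef
  have hinv := tiling_invariant_subgroup F A hp hA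
  set H := diffSubgroup F with hH
  obtain ⟨M, hMfin, hMH⟩ := exists_finiteIndex_inter_le H p hp.pos
  -- base points
  obtain ⟨f0, hf0⟩ : F.Nonempty := Finset.card_pos.mp hp.pos
  obtain ⟨⟨a0, _⟩, ⟨ha0, _, _⟩, _⟩ := hA 0
  simp only at ha0
  set L' := H ⊔ M with hL'
  set A' : Set G := {y | ∃ a ∈ A, a - a0 ∈ H ∧ ∃ m ∈ M, ∃ q : G ⧸ L',
    y = a + m + q.out - (a0 + f0)} with hA'
  refine ⟨A', M, hMfin, ?_, ?_⟩
  · intro x
    -- existence
    set q : G ⧸ L' := QuotientAddGroup.mk x with hq
    have hxq : x - q.out ∈ L' := by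
      rw [← QuotientAddGroup.eq_zero_iff, QuotientAddGroup.mk_sub, QuotientAddGroup.out_eq']
      simp [hq]
    obtain ⟨h, hh, m, hm, hhm⟩ := AddSubgroup.mem_sup.mp hxq
    obtain ⟨⟨a, f⟩, ⟨ha, hf, hsum⟩, -⟩ := hA (a0 + f0 + h)
    simp only at ha hf hsum
    have haH : a - a0 ∈ H := by
      have h1 : a - a0 = h + (f0 - f) := by
        have : a = a0 + f0 + h - f := by rw [← hsum]; simp
        rw [this]; abel
      rw [h1]
      exact H.add_mem hh (sub_mem_diffSubgroup F hf0 hf)
    refine ⟨(a + m + q.out - (a0 + f0), f), ⟨⟨a, ha, haH, m, hm, q, rfl⟩, hf, ?_⟩, ?_⟩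
    · simp only
      have : a + m + q.out - (a0 + f0) + f = (a + f) + m + q.out - (a0 + f0) := by abel
      rw [this, hsum]
      have h3 : h + m + q.out = x := by rw [hhm]; simp
      rw [← h3]; abel
    · -- uniqueness
      rintro ⟨y2, f2⟩ ⟨⟨a2, ha2, ha2H, m2, hm2, q2, rfl⟩, hf2, hsum2⟩
      simp only at hf2 hsum2
      -- the equation
      have heq : a2 + m2 + q2.out + f2 = a + m + q.out + f := by
        have h3 : h + m + q.out = x := by rw [hhm]; simp
        have h4 : a2 + m2 + q2.out + f2 = x + (a0 + f0) := by rw [← hsum2]; abel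
        have h9 : a + m + q.out + f = (a + f) + m + q.out := by abel
        rw [h4, ← h3, h9, hsum]; abel
      -- the quotient classes agree
      have hqq : q2 = q := by
        have hmem : q2.out - q.out ∈ L' := by
          have h5 : q2.out - q.out = ((a - a0) - (a2 - a0) + (f - f2)) + (m - m2) := by
            have : q2.out = a + m + q.out + f - (a2 + m2 + f2) := by rw [← heq]; abel
            rw [this]; abel
          rw [h5]
          exact AddSubgroup.add_mem _
            (AddSubgroup.mem_sup_left (H.add_mem (H.sub_mem haH ha2H)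
              (sub_mem_diffSubgroup F hf hf2)))
            (AddSubgroup.mem_sup_right (M.sub_mem hm hm2))
        have h6 : (QuotientAddGroup.mk (q2.out - q.out) : G ⧸ L') = 0 :=
          (QuotientAddGroup.eq_zero_iff _).mpr hmem
        rw [QuotientAddGroup.mk_sub, QuotientAddGroup.out_eq', QuotientAddGroup.out_eq'] at h6
        exact sub_eq_zero.mp h6
      rw [hqq] at heq
      have heq2 : a2 + m2 + f2 = a + m + f := by
        have h7 : a2 + m2 + f2 = a2 + m2 + q.out + f2 - q.out := by abel
        rw [h7, heq]; abel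
      -- the difference of the `M`-components lies in `p • H`
      have hmm : m2 - m ∈ M := M.sub_mem hm2 hm
      have hmmH : m2 - m ∈ H := by
        have h8 : m2 - m = (a - a0) - (a2 - a0) + (f - f2) := by
          have : m2 = a + m + f - (a2 + f2) := by rw [← heq2]; abel
          rw [this]; abel
        rw [h8]
        exact H.add_mem (H.sub_mem haH ha2H) (sub_mem_diffSubgroup F hf hf2)
      obtain ⟨h', hh', hmh⟩ := hMH _ hmm hmmH
      have ha2' : a2 + p • h' ∈ A := (hinv h' hh' a2).mpr ha2
      obtain ⟨⟨a3, f3⟩, -, huniq⟩ := hA (a + f)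
      have e1 := huniq (a, f) ⟨ha, hf, rfl⟩
      have e2 := huniq (a2 + p • h', f2) ⟨ha2', hf2, by
        simp only
        rw [← hmh]
        have : a2 + (m2 - m) + f2 = (a2 + m2 + f2) - m := by abel
        rw [this, heq2]; abel⟩
      have e3 : (a2 + p • h', f2) = (a, f) := e2.trans e1.symm
      have e4 : a2 + p • h' = a := (Prod.ext_iff.mp e3).1
      have e5 : f2 = f := (Prod.ext_iff.mp e3).2
      refine Prod.ext ?_ e5
      simp only
      rw [hqq, ← e4, ← hmh]; abel
  · intro μ hμ y
    constructor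
    · rintro ⟨a, ha, haH, m, hm, q, hy⟩
      refine ⟨a, ha, haH, m - μ, M.sub_mem hm hμ, q, ?_⟩
      have : y = y + μ - μ := by abel
      rw [this, hy]; abel
    · rintro ⟨a, ha, haH, m, hm, q, hy⟩
      refine ⟨a, ha, haH, m + μ, M.add_mem hm hμ, q, ?_⟩
      rw [hy]; abel

end Vale.Agent.Lib.P043
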